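import Vale.Agent.P129.FinalA

namespace Vale.Agent.Results.P129.CHCounter

open Vale.Agent.P129

theorem result
    (h : Cardinal.mk ℝ = Cardinal.aleph 1 ∨
      ∃ A : Set (ℕ → ℕ), Cardinal.mk A ≤ Cardinal.aleph 1 ∧ ¬ IsMeagre A) :
    ∃ (X : Type) (_ : NormedAddCommGroup X) (_ : NormedSpace ℝ X) (_ : CompleteSpace X),
      ¬ FiniteDimensional ℝ X ∧ ¬ HasSepQuotient ℝ X := by
  obtain ⟨A, hA, hm⟩ := h.elim exists_nonmeagre_of_CH id
  exact exists_real_counterexample A hA hm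

end Vale.Agent.Results.P129.CHCounter
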