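import Vale.Agent.P129.FinalA
import Vale.Agent.P129.RealB
import Vale.Agent.P129.CplxA
import Vale.Agent.P129.CplxB

namespace Vale.Agent.Results.P129.Independence

open Vale.Agent.P129 MeasureTheory

universe u

theorem result :
    ((Cardinal.mk ℝ = Cardinal.aleph 1 ∨
        ∃ A : Set (ℕ → ℕ), Cardinal.mk A ≤ Cardinal.aleph 1 ∧ ¬ IsMeagre A) →
      (∃ (X : Type) (_ : NormedAddCommGroup X) (_ : NormedSpace ℝ X) (_ : CompleteSpace X),
        ¬ FiniteDimensional ℝ X ∧ ¬ HasSepQuotient ℝ X) ∧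
      (∃ (X : Type) (_ : NormedAddCommGroup X) (_ : NormedSpace ℂ X) (_ : CompleteSpace X),
        ¬ FiniteDimensional ℂ X ∧ ¬ HasSepQuotient ℂ X)) ∧
    ((∃ μ : @Measure unitInterval ⊤,
        ∀ s : Set unitInterval, MeasurableSet s → μ s = volume s) →
      (∀ (X : Type u) [NormedAddCommGroup X] [NormedSpace ℝ X] [CompleteSpace X],
        ¬ FiniteDimensional ℝ X → HasSepQuotient ℝ X) ∧
      (∀ (X : Type u) [NormedAddCommGroup X] [NormedSpace ℂ X] [CompleteSpace X],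
        ¬ FiniteDimensional ℂ X → HasSepQuotient ℂ X)) := by
  refine ⟨fun h => ?_, fun ⟨μ, hμ⟩ => ⟨fun X _ _ _ hX => hasSepQuotient_real μ hμ X hX,
    fun X _ _ _ hX => hasSepQuotient_complex_of_real X (hasSepQuotient_real μ hμ X fun h =>
      hX (Module.Finite.of_restrictScalars_finite ℝ ℂ X))⟩⟩
  obtain ⟨A, hA, hm⟩ := h.elim exists_nonmeagre_of_CH id
  obtain ⟨X, i1, i2, i3, h1, h2⟩ := exists_real_counterexample A hA hm
  exact ⟨⟨X, i1, i2, i3, h1, h2⟩, exists_complex_of_real X h1 h2⟩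

end Vale.Agent.Results.P129.Independence
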